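import Mathlib

/-!
# The switch chain on graphs with a given degree sequence (problem P335)

Graphs on the vertex set `Fin n` are represented by their edge sets: finite sets of
unordered pairs `s(u, v)` with `u ≠ v`.
-/

namespace Vale.Agent.Lib.P335

open Finset
open Classical

/-- The neighbours of the vertex `v` in the graph with edge set `E`. -/
def nbrs {n : ℕ} (E : Finset (Sym2 (Fin n))) (v : Fin n) : Finset (Fin n) :=
  Finset.univ.filter (fun x => s(v, x) ∈ E)

/-- `E` is the edge set of a simple graph on `Fin n` (no loops) in which every vertex `v`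
has exactly `d v` neighbours. -/
def IsRealization {n : ℕ} (d : Fin n → ℕ) (E : Finset (Sym2 (Fin n))) : Prop :=
  (∀ e ∈ E, ¬ e.IsDiag) ∧ ∀ v, (nbrs E v).card = d v

/-- The state space: all simple graphs on `Fin n` with degree sequence `d`. -/
abbrev Omega {n : ℕ} (d : Fin n → ℕ) : Type :=
  {E : Finset (Sym2 (Fin n)) // IsRealization d E}

/-- The switch on `(a, b, c, e)`: if `ab` and `ce` are edges and `ac` and `be` are not,
replace `ab, ce` by `ac, be`; otherwise do nothing. -/
def switchSet {n : ℕ} (E : Finset (Sym2 (Fin n))) (a b c e : Fin n) : Finset (Sym2 (Fin n)) :=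
  if s(a, b) ∈ E ∧ s(c, e) ∈ E ∧ s(a, c) ∉ E ∧ s(b, e) ∉ E
  then (E \ {s(a, b), s(c, e)}) ∪ {s(a, c), s(b, e)}
  else E

/-- Ordered quadruples `(a, b, c, e)` of pairwise distinct vertices. Such a quadruple encodes
the four-element set `S = {a, b, c, e}` together with the ordered pair of distinct perfect
matchings `F = {ab, ce}`, `F' = {ac, be}` of the complete graph on `S`; every triple
`(S, F, F')` arises from exactly four quadruples. -/
abbrev Proposal (n : ℕ) : Type :=
  {p : Fin n × Fin n × Fin n × Fin n //
    p.1 ≠ p.2.1 ∧ p.1 ≠ p.2.2.1 ∧ p.1 ≠ p.2.2.2 ∧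
    p.2.1 ≠ p.2.2.1 ∧ p.2.1 ≠ p.2.2.2 ∧ p.2.2.1 ≠ p.2.2.2}

/-- The number of neighbours of `v` equals the number of edges containing `v`. -/
theorem card_nbrs_eq {n : ℕ} (E : Finset (Sym2 (Fin n))) (v : Fin n) :
    (nbrs E v).card = (E.filter (fun e => v ∈ e)).card := by
  have : E.filter (fun e => v ∈ e) = (nbrs E v).image (fun x => s(v, x)) := by
    ext z
    simp only [mem_filter, mem_image, nbrs, mem_univ, true_and]
    constructor
    · rintro ⟨hz, hv⟩
      obtain ⟨x, rfl⟩ := Sym2.mem_iff_exists.mp hv
      exact ⟨x, hz, rfl⟩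
    · rintro ⟨x, hx, rfl⟩
      exact ⟨hx, Sym2.mem_mk_left v x⟩
  rw [this, card_image_of_injective]
  intro x y hxy
  exact Sym2.congr_right.mp hxy

theorem switchSet_isRealization {n : ℕ} {d : Fin n → ℕ} {E : Finset (Sym2 (Fin n))}
    (hE : IsRealization d E) {a b c e : Fin n}
    (hab : a ≠ b) (hac : a ≠ c) (hae : a ≠ e) (hbc : b ≠ c) (hbe : b ≠ e) (hce : c ≠ e) :
    IsRealization d (switchSet E a b c e) := by
  unfold switchSet
  split_ifs with h
  · obtain ⟨h1, h2, h3, h4⟩ := h
    refine ⟨?_, ?_⟩
    · intro x hx
      simp only [mem_union, mem_sdiff, mem_insert, mem_singleton] at hx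
      rcases hx with ⟨hx, _⟩ | rfl | rfl
      · exact hE.1 x hx
      · simpa using hac
      · simpa using hbe
    · intro v
      rw [← hE.2 v, card_nbrs_eq, card_nbrs_eq]
      set X : Finset (Sym2 (Fin n)) := {s(a, b), s(c, e)} with hX
      set Y : Finset (Sym2 (Fin n)) := {s(a, c), s(b, e)} with hY
      have hXE : X ⊆ E := by
        intro z hz
        simp only [hX, mem_insert, mem_singleton] at hz
        rcases hz with rfl | rfl <;> assumption
      have hYE : Disjoint Y E := by
        rw [disjoint_left]
        intro z hz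
        simp only [hY, mem_insert, mem_singleton] at hz
        rcases hz with rfl | rfl <;> assumption
      have e1 : ((E \ X) ∪ Y).filter (fun z => v ∈ z)
          = (E.filter (fun z => v ∈ z) \ X.filter (fun z => v ∈ z)) ∪ Y.filter (fun z => v ∈ z) := by
        ext z
        simp only [mem_filter, mem_union, mem_sdiff]
        tauto
      have e2 : Disjoint (E.filter (fun z => v ∈ z) \ X.filter (fun z => v ∈ z))
          (Y.filter (fun z => v ∈ z)) := by
        rw [disjoint_left]
        intro z hz hz'
        simp only [mem_filter, mem_sdiff] at hz hz'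
        exact (disjoint_left.mp hYE hz'.1) hz.1.1
      have e3 : X.filter (fun z => v ∈ z) ⊆ E.filter (fun z => v ∈ z) :=
        filter_subset_filter _ hXE
      have e4 : (X.filter (fun z => v ∈ z)).card = (Y.filter (fun z => v ∈ z)).card := by
        simp only [hX, hY, filter_insert, filter_singleton, Sym2.mem_iff]
        by_cases hva : v = a
        · subst hva
          simp [hab, hac, hae]
        by_cases hvb : v = b
        · subst hvb
          simp [hab.symm, hbc, hbe]
        by_cases hvc : v = c
        · subst hvc
          simp [hac.symm, hbc.symm, hce]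
        by_cases hve : v = e
        · subst hve
          simp [hae.symm, hbe.symm, hce.symm]
        simp [hva, hvb, hvc, hve]
      rw [e1, card_union_of_disjoint e2, card_sdiff_of_subset e3, ← e4]
      have := card_le_card e3
      omega
  · exact hE

/-- One move of the chain: apply the switch proposed by `p` to the graph `G`
(the graph is unchanged when the proposed switch is not valid). -/
def step {n : ℕ} {d : Fin n → ℕ} (G : Omega d) (p : Proposal n) : Omega d :=
  ⟨switchSet G.1 p.1.1 p.1.2.1 p.1.2.2.1 p.1.2.2.2,
    switchSet_isRealization G.2 p.2.1 p.2.2.1 p.2.2.2.1 p.2.2.2.2.1 p.2.2.2.2.2.1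
      p.2.2.2.2.2.2⟩

/-- The transition matrix of the switch chain: with probability `1/2` stay put; otherwise
draw a proposal uniformly at random and apply `step`. -/
noncomputable def switchMatrix {n : ℕ} (d : Fin n → ℕ) : Matrix (Omega d) (Omega d) ℝ :=
  fun G G' => (1 / 2) * (if G = G' then 1 else 0)
    + (1 / 2) * (((Finset.univ.filter (fun p : Proposal n => step G p = G')).card : ℝ)
        / (Fintype.card (Proposal n) : ℝ))

/-- Total variation distance of two real functions on a finite type. -/
noncomputable def tvDist {α : Type} [Fintype α] (μ ν : α → ℝ) : ℝ :=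
  (1 / 2) * ∑ x, |μ x - ν x|

/-- The uniform distribution on the state space. -/
noncomputable def unifDist {n : ℕ} (d : Fin n → ℕ) : Omega d → ℝ :=
  fun _ => 1 / (Fintype.card (Omega d) : ℝ)

/-- The mixing time: the least `t` such that from every start the law after `t` steps is
within total variation distance `1/4` of the uniform distribution. -/
noncomputable def tmix {n : ℕ} (d : Fin n → ℕ) : ℕ :=
  sInf {t : ℕ | ∀ G : Omega d, tvDist ((switchMatrix d ^ t) G) (unifDist d) ≤ 1 / 4}

end Vale.Agent.Lib.P335
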