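import Vale.Agent.Lib.P335.Switch

/-!
# Split degree sequences (problem P335)

If `∑ u ∈ U, d u = |U| (|U| - 1) + ∑ w ∉ U, d w` then in every realization of `d` the set `U`
is a clique and its complement is an independent set.  We also record the Dirichlet form of
the proposal kernel and a crude bound on the number of realizations.
-/

namespace Vale.Agent.Lib.P335

open Finset
open Classical

variable {n : ℕ}

theorem mem_nbrs {E : Finset (Sym2 (Fin n))} {v x : Fin n} : x ∈ nbrs E v ↔ s(v, x) ∈ E := by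
  simp [nbrs]

theorem not_mem_nbrs_self {d : Fin n → ℕ} {E : Finset (Sym2 (Fin n))} (hE : IsRealization d E)
    (v : Fin n) : s(v, v) ∉ E := by
  intro h
  exact hE.1 _ h (by simp)

/-- neighbours inside a set -/
def nbIn (E : Finset (Sym2 (Fin n))) (U : Finset (Fin n)) (v : Fin n) : Finset (Fin n) :=
  U.filter (fun x => s(v, x) ∈ E)

theorem card_nbrs_inout (E : Finset (Sym2 (Fin n))) (U : Finset (Fin n)) (v : Fin n) :
    (nbrs E v).card = (nbIn E U v).card + (nbIn E Uᶜ v).card := by
  have h := Finset.card_filter_add_card_filter_not (s := nbrs E v) (fun x => x ∈ U)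
  have e1 : (nbrs E v).filter (fun x => x ∈ U) = nbIn E U v := by
    ext x
    simp only [nbIn, mem_filter, mem_nbrs]
    tauto
  have e2 : (nbrs E v).filter (fun x => ¬ x ∈ U) = nbIn E Uᶜ v := by
    ext x
    simp only [nbIn, mem_filter, mem_nbrs, mem_compl]
    tauto
  rw [e1, e2] at h
  exact h.symm

theorem sum_nbIn_comm (E : Finset (Sym2 (Fin n))) (U : Finset (Fin n)) :
    ∑ u ∈ U, (nbIn E Uᶜ u).card = ∑ w ∈ Uᶜ, (nbIn E U w).card := by
  have h1 : ∀ u, (nbIn E Uᶜ u).card = ∑ w ∈ Uᶜ, (if s(u, w) ∈ E then 1 else 0) := by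
    intro u
    rw [nbIn, card_filter]
  have h2 : ∀ w, (nbIn E U w).card = ∑ u ∈ U, (if s(u, w) ∈ E then 1 else 0) := by
    intro w
    rw [nbIn, card_filter]
    refine sum_congr rfl fun u _ => ?_
    rw [Sym2.eq_swap]
  simp only [h1, h2]
  exact sum_comm

/-- The split structure forced by the Hammer-Simeone equality. -/
theorem split_structure {d : Fin n → ℕ} {U : Finset (Fin n)}
    (hHS : ∑ u ∈ U, d u = U.card * (U.card - 1) + ∑ w ∈ Uᶜ, d w)
    {E : Finset (Sym2 (Fin n))} (hE : IsRealization d E) :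
    (∀ u ∈ U, ∀ u' ∈ U, u ≠ u' → s(u, u') ∈ E) ∧
      (∀ w ∈ Uᶜ, ∀ w' ∈ Uᶜ, s(w, w') ∉ E) := by
  have hd : ∀ v, d v = (nbIn E U v).card + (nbIn E Uᶜ v).card := by
    intro v
    rw [← hE.2 v, card_nbrs_inout E U v]
  have hsub : ∀ u ∈ U, nbIn E U u ⊆ U.erase u := by
    intro u _ x hx
    simp only [nbIn, mem_filter] at hx
    rw [mem_erase]
    refine ⟨?_, hx.1⟩
    rintro rfl
    exact not_mem_nbrs_self hE _ hx.2
  have hle : ∀ u ∈ U, (nbIn E U u).card ≤ U.card - 1 := by
    intro u hu
    have := card_le_card (hsub u hu)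
    rwa [card_erase_of_mem hu] at this
  have hsumle : ∑ u ∈ U, (nbIn E U u).card ≤ U.card * (U.card - 1) := by
    calc ∑ u ∈ U, (nbIn E U u).card ≤ ∑ _u ∈ U, (U.card - 1) := sum_le_sum hle
      _ = U.card * (U.card - 1) := by rw [sum_const, smul_eq_mul]
  have hL : ∑ u ∈ U, d u = ∑ u ∈ U, (nbIn E U u).card + ∑ w ∈ Uᶜ, (nbIn E U w).card := by
    rw [← sum_nbIn_comm, ← sum_add_distrib]
    exact sum_congr rfl fun u _ => hd u
  have hR : ∑ w ∈ Uᶜ, d w = ∑ w ∈ Uᶜ, (nbIn E U w).card + ∑ w ∈ Uᶜ, (nbIn E Uᶜ w).card := by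
    rw [← sum_add_distrib]
    exact sum_congr rfl fun w _ => hd w
  rw [hL, hR] at hHS
  have hzero : ∑ w ∈ Uᶜ, (nbIn E Uᶜ w).card = 0 := by omega
  have hfull : ∑ u ∈ U, (nbIn E U u).card = ∑ _u ∈ U, (U.card - 1) := by
    rw [sum_const, smul_eq_mul]
    omega
  have hfull' : ∀ u ∈ U, (nbIn E U u).card = U.card - 1 :=
    (sum_eq_sum_iff_of_le hle).mp hfull
  constructor
  · intro u hu u' hu' hne
    have heq : nbIn E U u = U.erase u := by
      apply eq_of_subset_of_card_le (hsub u hu)
      rw [card_erase_of_mem hu, hfull' u hu]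
    have : u' ∈ nbIn E U u := by
      rw [heq, mem_erase]
      exact ⟨Ne.symm hne, hu'⟩
    simp only [nbIn, mem_filter] at this
    exact this.2
  · intro w hw w' hw' hmem
    have h0 : (nbIn E Uᶜ w).card = 0 := (sum_eq_zero_iff.mp hzero) w hw
    have : w' ∈ nbIn E Uᶜ w := by
      simp only [nbIn, mem_filter]
      exact ⟨hw', hmem⟩
    rw [card_eq_zero] at h0
    rw [h0] at this
    exact absurd this (notMem_empty _)

/-- The Dirichlet form of the proposal kernel as a sum over proposals. -/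
theorem dform_Qker (d : Fin n → ℕ) (f : Omega d → ℝ) :
    dform (Qker d) f
      = (∑ G : Omega d, ∑ p : Proposal n, (f G - f (step G p)) ^ 2)
          / (Fintype.card (Proposal n) : ℝ) := by
  unfold dform
  rw [sum_div]
  refine sum_congr rfl fun G _ => ?_
  have h := Finset.sum_fiberwise (s := (univ : Finset (Proposal n))) (g := step G)
    (f := fun p => (f G - f (step G p)) ^ 2)
  rw [← h, sum_div]
  refine sum_congr rfl fun G' _ => ?_
  have h2 : ∑ p ∈ univ.filter (fun p : Proposal n => step G p = G'), (f G - f (step G p)) ^ 2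
      = ((univ.filter (fun p : Proposal n => step G p = G')).card : ℝ) * (f G - f G') ^ 2 := by
    rw [← nsmul_eq_mul, ← sum_const]
    refine sum_congr rfl fun p hp => ?_
    rw [(mem_filter.mp hp).2]
  rw [h2]
  unfold Qker
  ring

/-- A crude bound on the number of realizations. -/
theorem card_Omega_le (d : Fin n → ℕ) : Fintype.card (Omega d) ≤ 2 ^ (n * n) := by
  calc Fintype.card (Omega d) ≤ Fintype.card (Finset (Sym2 (Fin n))) :=
        Fintype.card_subtype_le _
    _ = 2 ^ Fintype.card (Sym2 (Fin n)) := Fintype.card_finset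
    _ ≤ 2 ^ (n * n) := by
        apply Nat.pow_le_pow_right (by norm_num)
        rw [Sym2.card, Fintype.card_fin, Nat.choose_two_right]
        apply Nat.div_le_of_le_mul
        have h1 : n ≤ n * n := Nat.le_mul_self n
        have h2 : n + 1 - 1 = n := by omega
        rw [h2]
        nlinarith

end Vale.Agent.Lib.P335
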