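import Vale.Agent.Lib.P335.H22.GraphGap
import Vale.Agent.Lib.P335.H23.GraphDGr

/-!
# Mixing of the switch chain for every degree sequence, from the three graph inequalities

The final assembly of the simple-graph case: the triple inequality `(T)`, the pair inequality
`(PI)` for two disjoint vertex pairs and the Johnson-type inequality `(J2)` for one vertex pair
give the Poincare inequality with constant `4` for the unit-weight switch energy, hence mixing
of the lazy switch chain within `n^6` steps. The flip energy `fen` and the orbit-mean term `kap`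
are arbitrary here; only the two inequalities relating them are used.
-/

namespace Vale.Agent.Lib.P335

open Finset
open Classical
open Vale.Agent.Lib.P335.Gr
open Vale.Agent.Lib.P335.Bip (ip)

variable {n : ℕ}

/-- Mixing within `n^6` steps and the bound on the mixing time from `(T)`, `(PI)`, `(J2)`. -/
theorem graph_mix_of (d : Fin n → ℕ) (hn : 4 ≤ n)
    (h3 : ∀ u v w : Fin n, u ≠ v → u ≠ w → v ≠ w → ∀ f : Omega d → ℝ,
      ip f (gavg {v, w} f) + ip f (gavg {u, w} f) + ip f (gavg {u, v} f)
        ≤ 2 * ip f f + ip f (gavg {u, v, w} f))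
    (fen kap : Finset (Fin n) → Finset (Fin n) → (Omega d → ℝ) → ℝ)
    (hPI : ∀ f : Omega d → ℝ, ∀ b ∈ (univ : Finset (Fin n)).powersetCard 2,
      ∀ c ∈ (univ : Finset (Fin n)).powersetCard 2, Disjoint b c →
      (1 / 2) * fen b c f - kap b c f - kap c b f
        ≤ 2 * ip (f - gavg b f) (f - gavg c f))
    (hJ2 : ∀ f : Omega d → ℝ, ∀ b ∈ (univ : Finset (Fin n)).powersetCard 2,
      ip (f - gavg b f) (f - gavg b f)
        + ∑ c ∈ ((univ : Finset (Fin n)).powersetCard 2).filter (fun c => Disjoint b c),
            kap b c f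
      ≤ (1 / 4) * ∑ c ∈ ((univ : Finset (Fin n)).powersetCard 2).filter
          (fun c => Disjoint b c), fen b c f) :
    (∀ (t : ℕ), n ^ 6 ≤ t →
        ∀ G : Omega d, tvDist ((switchMatrix d ^ t) G) (unifDist d) ≤ 1 / 4)
      ∧ tmix d ≤ n ^ 6 := by
  have hD : ∀ f : Omega d → ℝ,
      ∑ b ∈ (univ : Finset (Fin n)).powersetCard 2, ip (f - gavg b f) (f - gavg b f)
        ≤ ∑ b ∈ (univ : Finset (Fin n)).powersetCard 2,
            ∑ c ∈ ((univ : Finset (Fin n)).powersetCard 2).filter (fun c => Disjoint b c),
              ip (f - gavg b f) (f - gavg c f) := by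
    intro f
    have h := H23.graphD_gavg fen kap f (hPI f) (hJ2 f)
    rw [Finset.sum_congr rfl (fun b _ => (H23.ip_sub_gavg_self b f).symm)] at h
    exact h
  have hsum : ∀ f : Omega d → ℝ,
      ∑ b ∈ (univ : Finset (Fin n)).powersetCard 2, genergy b f ≤ 2 * H23.switchEnergy d f :=
    fun f => le_of_eq (genergy_sum f)
  exact ⟨fun t ht G => H22.graph_tv_of hn h3 hD hsum t ht G, H22.graph_tmix_of hn h3 hD hsum⟩

end Vale.Agent.Lib.P335
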