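import Vale.Agent.Lib.P335.SplitPoincare
import Vale.Agent.Lib.P335.H23.SwitchGap

/-!
# Mixing of the switch chain on split classes, given the table Poincare inequality (P335)
-/

namespace Vale.Agent.Lib.P335

open Finset
open Classical

variable {n : ℕ}

theorem log_card_Omega_le' (d : Fin n → ℕ) :
    Real.log (Fintype.card (Omega d) : ℝ) ≤ (7 / 10) * (n : ℝ) ^ 2 := by
  rcases Nat.eq_zero_or_pos (Fintype.card (Omega d)) with h0 | hpos
  · rw [h0]
    simp only [Nat.cast_zero, Real.log_zero]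
    positivity
  · have h1 : (Fintype.card (Omega d) : ℝ) ≤ (2 : ℝ) ^ (n ^ 2) := by
      exact_mod_cast H23.card_Omega_le d
    have h2 : (0 : ℝ) < Fintype.card (Omega d) := by exact_mod_cast hpos
    calc Real.log (Fintype.card (Omega d) : ℝ) ≤ Real.log ((2 : ℝ) ^ (n ^ 2)) :=
          Real.log_le_log h2 h1
      _ = (n ^ 2 : ℕ) * Real.log 2 := by rw [Real.log_pow]
      _ ≤ (n ^ 2 : ℕ) * (7 / 10) := by
          apply mul_le_mul_of_nonneg_left _ (Nat.cast_nonneg _)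
          have := Real.log_two_lt_d9
          linarith
      _ = (7 / 10) * (n : ℝ) ^ 2 := by push_cast; ring

/-- From the unit-weight Poincare inequality with constant `4` (second Laplacian eigenvalue
at least `2`) to mixing within `n^6` steps. -/
theorem switch_tv_n6 (hn : 4 ≤ n) (d : Fin n → ℕ)
    (hpoin : ∀ f : Omega d → ℝ, ∑ G, f G = 0 → 4 * ∑ G, f G ^ 2 ≤ H23.switchEnergy d f)
    (t : ℕ) (ht : n ^ 6 ≤ t) (G : Omega d) :
    tvDist ((switchMatrix d ^ t) G) (unifDist d) ≤ 1 / 4 := by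
  have hn4r : (4 : ℝ) ≤ n := by exact_mod_cast hn
  have hn4pos : (0 : ℝ) < (n : ℝ) ^ 4 := by positivity
  have hγ0 : 0 < 4 / (n : ℝ) ^ 4 := by positivity
  have hγ4 : 4 / (n : ℝ) ^ 4 ≤ 4 := by
    rw [div_le_iff₀ hn4pos]
    have : (1 : ℝ) ≤ (n : ℝ) ^ 4 := one_le_pow₀ (by linarith)
    linarith
  have hpoin' : ∀ f : Omega d → ℝ, ∑ G, f G = 0 →
      4 / (n : ℝ) ^ 4 * ∑ G, f G ^ 2 ≤ dform (Qker d) f := by
    intro f hf
    have h1 := hpoin f hf
    have h2 := H23.switchEnergy_le_dform hn d f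
    calc 4 / (n : ℝ) ^ 4 * ∑ G, f G ^ 2 = (4 * ∑ G, f G ^ 2) / (n : ℝ) ^ 4 := by ring
      _ ≤ H23.switchEnergy d f / (n : ℝ) ^ 4 := div_le_div_of_nonneg_right h1 hn4pos.le
      _ ≤ dform (Qker d) f := h2
  have hlog := log_card_Omega_le' d
  have ht' : (4 / (4 / (n : ℝ) ^ 4)) * (Real.log (Fintype.card (Omega d) : ℝ) + 2) ≤ t := by
    have h3 : 4 / (4 / (n : ℝ) ^ 4) = (n : ℝ) ^ 4 := by field_simp
    rw [h3]
    have h5 : ((n ^ 6 : ℕ) : ℝ) ≤ (t : ℝ) := by exact_mod_cast ht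
    have h6 : (n : ℝ) ^ 4 * (Real.log (Fintype.card (Omega d) : ℝ) + 2)
        ≤ (n : ℝ) ^ 4 * ((7 / 10) * (n : ℝ) ^ 2 + 2) :=
      mul_le_mul_of_nonneg_left (by linarith) hn4pos.le
    have h8 : (16 : ℝ) ≤ (n : ℝ) ^ 2 := by nlinarith
    have h7 : (n : ℝ) ^ 4 * ((7 / 10) * (n : ℝ) ^ 2 + 2) ≤ (n : ℝ) ^ 4 * (n : ℝ) ^ 2 :=
      mul_le_mul_of_nonneg_left (by linarith) hn4pos.le
    have h9 : (n : ℝ) ^ 4 * (n : ℝ) ^ 2 = ((n ^ 6 : ℕ) : ℝ) := by push_cast; ring
    linarith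
  exact H23.lazy_chain_tv_exp (Qker d) (Qker_symm d) (Qker_nonneg d) (Qker_row hn d)
    (4 / (n : ℝ) ^ 4) hγ0 hγ4 hpoin' (switchMatrix d) (fun x y => rfl) t ht' G

/-- A graph with a split realization satisfies the Hammer-Simeone equality. -/
theorem HS_of_isSplit {d : Fin n → ℕ} {U : Finset (Fin n)} {E : Finset (Sym2 (Fin n))}
    (hE : IsRealization d E) (hS : IsSplit U E) :
    ∑ u ∈ U, d u = U.card * (U.card - 1) + ∑ w ∈ Uᶜ, d w := by
  have hd : ∀ v, d v = (nbIn E U v).card + (nbIn E Uᶜ v).card := by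
    intro v
    rw [← hE.2 v, card_nbrs_inout E U v]
  have h1 : ∀ u ∈ U, (nbIn E U u).card = U.card - 1 := by
    intro u hu
    have : nbIn E U u = U.erase u := by
      ext x
      simp only [nbIn, mem_filter, mem_erase]
      constructor
      · rintro ⟨hx, hxE⟩
        refine ⟨?_, hx⟩
        rintro rfl
        exact hS.1 _ hxE (by simp)
      · rintro ⟨hne, hx⟩
        exact ⟨hx, hS.2.1 u hu x hx (Ne.symm hne)⟩
    rw [this, card_erase_of_mem hu]
  have h2 : ∀ w ∈ Uᶜ, (nbIn E Uᶜ w).card = 0 := by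
    intro w hw
    rw [card_eq_zero]
    ext x
    simp only [nbIn, mem_filter, notMem_empty, iff_false, not_and]
    intro hx
    exact hS.2.2 w hw x hx
  calc ∑ u ∈ U, d u = ∑ u ∈ U, ((U.card - 1) + (nbIn E Uᶜ u).card) :=
        sum_congr rfl fun u hu => by rw [hd u, h1 u hu]
    _ = U.card * (U.card - 1) + ∑ u ∈ U, (nbIn E Uᶜ u).card := by
        rw [sum_add_distrib, sum_const, smul_eq_mul]
    _ = U.card * (U.card - 1) + ∑ w ∈ Uᶜ, (nbIn E U w).card := by rw [sum_nbIn_comm]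
    _ = U.card * (U.card - 1) + ∑ w ∈ Uᶜ, d w := by
        congr 1
        exact sum_congr rfl fun w hw => by rw [hd w, h2 w hw, add_zero]

/-- If one realization is split with clique `U`, all realizations are. -/
theorem all_split_of_one {d : Fin n → ℕ} {U : Finset (Fin n)} (G₀ : Omega d)
    (hS : IsSplit U G₀.1) (G : Omega d) : IsSplit U G.1 :=
  isSplit_of_HS (HS_of_isSplit G₀.2 hS) G.2

/-- Mixing of a split class within `n^6` steps, given the table Poincare inequality. -/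
theorem split_tv_of_bip (hn : 4 ≤ n) (d : Fin n → ℕ) (U : Finset (Fin n))
    (hsplit : ∀ G : Omega d, IsSplit U G.1)
    (hbip : ∀ F : Bip.Tab (rowSum d U) (colSum d U) → ℝ, ∑ x, F x = 0 →
      4 * Bip.ip F F ≤ Bip.energyIn univ F)
    (t : ℕ) (ht : n ^ 6 ≤ t) (G : Omega d) :
    tvDist ((switchMatrix d ^ t) G) (unifDist d) ≤ 1 / 4 := by
  apply switch_tv_n6 hn d _ t ht G
  intro f hf
  have h := split_poincare_of_bip d U hsplit hbip f hf
  unfold H23.switchEnergy H23.SwitchAdj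
  convert h using 1
  refine sum_congr rfl fun G _ => sum_congr rfl fun G' _ => ?_
  by_cases hc : (G ≠ G' ∧ ∃ p : Proposal n, step G p = G')
  · rw [if_pos hc, if_pos hc]
  · rw [if_neg hc, if_neg hc]

end Vale.Agent.Lib.P335
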