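import Vale.Agent.Lib.P335.Switch

/-!
# The mixing bound for the switch chain
-/

namespace Vale.Agent.Lib.P335

open Finset
open Classical

variable {n : ℕ}

/-- Any two realizations at symmetric-difference distance at most `m` are joined by at most
`m` switches. -/
theorem switch_connected (hn : 4 ≤ n) (d : Fin n → ℕ) :
    ∀ m : ℕ, ∀ G H : Omega d, sdist G.1 H.1 ≤ m →
      ∃ k ≤ m, Reach (fun u v => 1 / (n : ℝ) ^ 4 ≤ Qker d u v) k G H := by
  intro m
  induction m with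
  | zero =>
    intro G H h
    have : G = H := Subtype.ext (sdist_eq_zero (by omega))
    subst this
    exact ⟨0, le_refl _, Reach.refl _⟩
  | succ m ih =>
    intro G H h
    by_cases hne : G = H
    · subst hne
      exact ⟨0, Nat.zero_le _, Reach.refl _⟩
    · rcases exists_decreasing G H hne with ⟨p, hp⟩ | ⟨p, hp⟩
      · obtain ⟨k, hk, hr⟩ := ih (step G p) H (by omega)
        exact ⟨k + 1, by omega, Reach.step (Qker_ge hn rfl) hr⟩
      · obtain ⟨k, hk, hr⟩ := ih G (step H p) (by omega)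
        refine ⟨k + 1, by omega, Reach.trans hr (Reach.single ?_)⟩
        rw [Qker_symm]
        exact Qker_ge hn rfl

/-- The total variation bound. -/
theorem switch_tv (hn : 4 ≤ n) (d : Fin n → ℕ) (t : ℕ)
    (ht : 8 * n ^ 8 * (Fintype.card (Omega d)) ^ 2 ≤ t) (G : Omega d) :
    tvDist ((switchMatrix d ^ t) G) (unifDist d) ≤ 1 / 4 := by
  have hn0 : (0 : ℝ) < n := by
    have : 0 < n := by omega
    exact_mod_cast this
  have hn1 : (1 : ℝ) ≤ n := by
    have : 1 ≤ n := by omega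
    exact_mod_cast this
  have hq1 : 1 / (n : ℝ) ^ 4 ≤ 1 := by
    rw [div_le_one (by positivity)]
    exact one_le_pow₀ hn1
  have hD : 1 ≤ n ^ 2 := Nat.one_le_pow _ _ (by omega)
  have ht' : 8 * (Fintype.card (Omega d) : ℝ) ^ 2 * ((n ^ 2 : ℕ) : ℝ) ^ 2 / (1 / (n : ℝ) ^ 4)
      ≤ (t : ℝ) := by
    have h1 : ((8 * n ^ 8 * (Fintype.card (Omega d)) ^ 2 : ℕ) : ℝ) ≤ (t : ℝ) := by
      exact_mod_cast ht
    have h2 : 8 * (Fintype.card (Omega d) : ℝ) ^ 2 * ((n ^ 2 : ℕ) : ℝ) ^ 2 / (1 / (n : ℝ) ^ 4)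
        = ((8 * n ^ 8 * (Fintype.card (Omega d)) ^ 2 : ℕ) : ℝ) := by
      push_cast
      field_simp
    rw [h2]
    exact h1
  have h := lazy_chain_tv (Qker d) (Qker_symm d) (Qker_nonneg d) (Qker_row hn d)
    (1 / (n : ℝ) ^ 4) (by positivity) hq1 (n ^ 2) hD
    (fun x y => switch_connected hn d (n ^ 2) x y (sdist_le _ _))
    (switchMatrix d) (fun x y => rfl) t ht' G
  exact h

/-- The mixing time bound. -/
theorem tmix_le (hn : 4 ≤ n) (d : Fin n → ℕ) :
    tmix d ≤ 8 * n ^ 8 * (Fintype.card (Omega d)) ^ 2 := by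
  unfold tmix
  apply Nat.sInf_le
  intro G
  exact switch_tv hn d _ (le_refl _) G

end Vale.Agent.Lib.P335
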