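import Mathlib

/-!
# A general mixing bound for lazy symmetric chains on a finite connected state space
-/

namespace Vale.Agent.Lib.P335

open Finset

/-- `Reach r k x y`: there is a chain of `k` steps of the relation `r` from `x` to `y`. -/
inductive Reach {Ω : Type} (r : Ω → Ω → Prop) : ℕ → Ω → Ω → Prop
  | refl (x : Ω) : Reach r 0 x x
  | step {k : ℕ} {x y z : Ω} : r x y → Reach r k y z → Reach r (k + 1) x z

theorem Reach.trans {Ω : Type} {r : Ω → Ω → Prop} {k l : ℕ} {x y z : Ω}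
    (h1 : Reach r k x y) (h2 : Reach r l y z) : Reach r (k + l) x z := by
  induction h1 with
  | refl x => simpa using h2
  | step hr _ ih =>
    have := Reach.step hr (ih h2)
    rw [Nat.add_right_comm]
    exact this

theorem Reach.single {Ω : Type} {r : Ω → Ω → Prop} {x y : Ω} (h : r x y) : Reach r 1 x y :=
  Reach.step h (Reach.refl y)

theorem Reach.symm {Ω : Type} {r : Ω → Ω → Prop} (hr : ∀ x y, r x y → r y x) {k : ℕ} {x y : Ω}
    (h : Reach r k x y) : Reach r k y x := by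
  induction h with
  | refl x => exact Reach.refl x
  | step h1 _ ih => exact Reach.trans ih (Reach.single (hr _ _ h1))

theorem Reach.abs_sub_le {Ω : Type} {r : Ω → Ω → Prop} (f : Ω → ℝ) (b : ℝ)
    (hb : ∀ u v, r u v → |f u - f v| ≤ b) {k : ℕ} {x y : Ω} (h : Reach r k x y) :
    |f x - f y| ≤ k * b := by
  induction h with
  | refl x => simp
  | @step k x y z h1 _ ih =>
    calc |f x - f z| ≤ |f x - f y| + |f y - f z| := _root_.abs_sub_le _ _ _
      _ ≤ b + k * b := add_le_add (hb _ _ h1) ih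
      _ = (k + 1 : ℕ) * b := by push_cast; ring

section
variable {Ω : Type} [Fintype Ω]

/-- the Dirichlet-type form `∑ Q x y (f x - f y)^2` -/
noncomputable def dform (Q : Ω → Ω → ℝ) (f : Ω → ℝ) : ℝ := ∑ x, ∑ y, Q x y * (f x - f y) ^ 2

/-- one step of the lazy chain acting on functions -/
noncomputable def lazyStep (Q : Ω → Ω → ℝ) (f : Ω → ℝ) : Ω → ℝ :=
  fun x => (f x + ∑ y, Q x y * f y) / 2

variable (Q : Ω → Ω → ℝ) (hQsymm : ∀ x y, Q x y = Q y x) (hQnn : ∀ x y, 0 ≤ Q x y)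
  (hQrow : ∀ x, ∑ y, Q x y = 1)

include hQnn in
theorem dform_nonneg (f : Ω → ℝ) : 0 ≤ dform Q f :=
  sum_nonneg fun x _ => sum_nonneg fun y _ => mul_nonneg (hQnn x y) (sq_nonneg _)

include hQsymm hQrow in
theorem hQcol (y : Ω) : ∑ x, Q x y = 1 := by
  rw [← hQrow y]
  exact sum_congr rfl fun x _ => hQsymm x y

include hQsymm hQrow in
theorem sum_lazyStep (f : Ω → ℝ) : ∑ x, lazyStep Q f x = ∑ x, f x := by
  unfold lazyStep
  have h1 : ∑ x, ∑ y, Q x y * f y = ∑ y, f y := by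
    rw [sum_comm]
    refine sum_congr rfl fun y _ => ?_
    rw [← sum_mul, hQcol Q hQsymm hQrow y, one_mul]
  rw [← sum_div, sum_add_distrib, h1]
  ring

include hQsymm hQrow in
theorem inner_Q (f : Ω → ℝ) :
    ∑ x, f x * ∑ y, Q x y * f y = ∑ x, f x ^ 2 - dform Q f / 2 := by
  have h1 : dform Q f = ∑ x, ∑ y, (Q x y * f x ^ 2 - 2 * (f x * (Q x y * f y)) + Q x y * f y ^ 2) := by
    unfold dform
    refine sum_congr rfl fun x _ => sum_congr rfl fun y _ => ?_
    ring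
  have h2 : ∑ x, ∑ y, Q x y * f x ^ 2 = ∑ x, f x ^ 2 := by
    refine sum_congr rfl fun x _ => ?_
    rw [← sum_mul, hQrow x, one_mul]
  have h3 : ∑ x, ∑ y, Q x y * f y ^ 2 = ∑ y, f y ^ 2 := by
    rw [sum_comm]
    refine sum_congr rfl fun y _ => ?_
    rw [← sum_mul, hQcol Q hQsymm hQrow y, one_mul]
  have h4 : ∑ x, ∑ y, 2 * (f x * (Q x y * f y)) = 2 * ∑ x, f x * ∑ y, Q x y * f y := by
    rw [mul_sum]
    refine sum_congr rfl fun x _ => ?_
    rw [mul_sum, mul_sum]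
  simp only [sum_add_distrib, sum_sub_distrib] at h1
  rw [h2, h3, h4] at h1
  linarith

include hQsymm hQnn hQrow in
theorem sum_Q_sq_le (f : Ω → ℝ) : ∑ x, (∑ y, Q x y * f y) ^ 2 ≤ ∑ x, f x ^ 2 := by
  have h1 : ∀ x, (∑ y, Q x y * f y) ^ 2 ≤ ∑ y, Q x y * f y ^ 2 := by
    intro x
    obtain ⟨m, hm⟩ : ∃ m : ℝ, m = ∑ y, Q x y * f y := ⟨_, rfl⟩
    have h : 0 ≤ ∑ y, Q x y * (f y - m) ^ 2 :=
      sum_nonneg fun y _ => mul_nonneg (hQnn x y) (sq_nonneg _)
    have h' : ∑ y, Q x y * (f y - m) ^ 2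
        = ∑ y, Q x y * f y ^ 2 - 2 * m * ∑ y, Q x y * f y + m ^ 2 * ∑ y, Q x y := by
      rw [mul_sum, mul_sum, ← sum_sub_distrib, ← sum_add_distrib]
      refine sum_congr rfl fun y _ => ?_
      ring
    rw [h', hQrow x, ← hm] at h
    rw [← hm]
    nlinarith
  calc ∑ x, (∑ y, Q x y * f y) ^ 2 ≤ ∑ x, ∑ y, Q x y * f y ^ 2 := sum_le_sum fun x _ => h1 x
    _ = ∑ y, f y ^ 2 := by
      rw [sum_comm]
      refine sum_congr rfl fun y _ => ?_
      rw [← sum_mul, hQcol Q hQsymm hQrow y, one_mul]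

include hQsymm hQnn hQrow in
theorem sum_lazyStep_sq_le (f : Ω → ℝ) :
    ∑ x, lazyStep Q f x ^ 2 ≤ ∑ x, f x ^ 2 - dform Q f / 4 := by
  have h1 : ∑ x, lazyStep Q f x ^ 2
      = (∑ x, f x ^ 2 + 2 * ∑ x, f x * ∑ y, Q x y * f y + ∑ x, (∑ y, Q x y * f y) ^ 2) / 4 := by
    unfold lazyStep
    rw [mul_sum, ← sum_add_distrib, ← sum_add_distrib, sum_div]
    refine sum_congr rfl fun x _ => ?_
    ring
  rw [h1, inner_Q Q hQsymm hQrow f]
  have := sum_Q_sq_le Q hQsymm hQnn hQrow f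
  linarith

theorem sum_sq_diff (f : Ω → ℝ) :
    ∑ x, ∑ y, (f x - f y) ^ 2 = 2 * (Fintype.card Ω : ℝ) * ∑ x, f x ^ 2 - 2 * (∑ x, f x) ^ 2 := by
  have h1 : ∑ x, ∑ y, (f x - f y) ^ 2 = ∑ x, ∑ y, (f x ^ 2 - 2 * (f x * f y) + f y ^ 2) := by
    refine sum_congr rfl fun x _ => sum_congr rfl fun y _ => ?_
    ring
  rw [h1]
  simp only [sum_add_distrib, sum_sub_distrib, sum_const, card_univ, nsmul_eq_mul]
  have h2 : ∑ x, ∑ y, 2 * (f x * f y) = 2 * (∑ x, f x) ^ 2 := by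
    rw [sq, sum_mul_sum, mul_sum]
    refine sum_congr rfl fun x _ => ?_
    rw [mul_sum]
  rw [h2, ← mul_sum]
  ring

include hQnn in
/-- Poincare inequality from connectivity with chains of length at most `D`. -/
theorem poincare (q : ℝ) (hq : 0 < q) (D : ℕ)
    (hconn : ∀ x y, ∃ k ≤ D, Reach (fun u v => q ≤ Q u v) k x y)
    (f : Ω → ℝ) (hf : ∑ x, f x = 0) :
    2 * q * ∑ x, f x ^ 2 ≤ (Fintype.card Ω : ℝ) * (D : ℝ) ^ 2 * dform Q f := by
  have hE := dform_nonneg Q hQnn f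
  set b := Real.sqrt (dform Q f / q) with hb
  have hb2 : b ^ 2 = dform Q f / q := Real.sq_sqrt (div_nonneg hE hq.le)
  have hedge : ∀ u v, q ≤ Q u v → |f u - f v| ≤ b := by
    intro u v huv
    rw [hb]
    apply Real.abs_le_sqrt
    rw [le_div_iff₀ hq]
    have h1 : Q u v * (f u - f v) ^ 2 ≤ dform Q f := by
      unfold dform
      have h2 : Q u v * (f u - f v) ^ 2 ≤ ∑ y, Q u y * (f u - f y) ^ 2 :=
        single_le_sum (f := fun y => Q u y * (f u - f y) ^ 2)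
          (fun y _ => mul_nonneg (hQnn u y) (sq_nonneg _)) (mem_univ v)
      have h3 : ∑ y, Q u y * (f u - f y) ^ 2 ≤ ∑ x, ∑ y, Q x y * (f x - f y) ^ 2 :=
        single_le_sum (f := fun x => ∑ y, Q x y * (f x - f y) ^ 2)
          (fun x _ => sum_nonneg fun y _ => mul_nonneg (hQnn x y) (sq_nonneg _)) (mem_univ u)
      exact h2.trans h3
    have h4 : q * (f u - f v) ^ 2 ≤ Q u v * (f u - f v) ^ 2 :=
      mul_le_mul_of_nonneg_right huv (sq_nonneg _)
    linarith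
  have hb0 : 0 ≤ b := Real.sqrt_nonneg _
  have hpair : ∀ x y, (f x - f y) ^ 2 ≤ (D : ℝ) ^ 2 * (dform Q f / q) := by
    intro x y
    obtain ⟨k, hk, hreach⟩ := hconn x y
    have h1 := Reach.abs_sub_le f b hedge hreach
    have h2 : (k : ℝ) * b ≤ D * b := mul_le_mul_of_nonneg_right (by exact_mod_cast hk) hb0
    have h3 : |f x - f y| ≤ D * b := h1.trans h2
    have h4 : (f x - f y) ^ 2 ≤ (D * b) ^ 2 := by
      rw [← sq_abs (f x - f y)]
      exact pow_le_pow_left₀ (abs_nonneg _) h3 2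
    rw [mul_pow, hb2] at h4
    exact h4
  have hsum : ∑ x, ∑ y, (f x - f y) ^ 2
      ≤ (Fintype.card Ω : ℝ) * ((Fintype.card Ω : ℝ) * ((D : ℝ) ^ 2 * (dform Q f / q))) := by
    calc ∑ x, ∑ y, (f x - f y) ^ 2 ≤ ∑ _x : Ω, ∑ _y : Ω, (D : ℝ) ^ 2 * (dform Q f / q) :=
          sum_le_sum fun x _ => sum_le_sum fun y _ => hpair x y
      _ = _ := by simp [sum_const, card_univ, nsmul_eq_mul]
  rw [sum_sq_diff, hf] at hsum
  have hN : (0 : ℝ) ≤ Fintype.card Ω := Nat.cast_nonneg _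
  have key : 2 * (Fintype.card Ω : ℝ) * ∑ x, f x ^ 2 * q
      ≤ (Fintype.card Ω : ℝ) * ((Fintype.card Ω : ℝ) * ((D : ℝ) ^ 2 * dform Q f)) := by
    have h5 : (Fintype.card Ω : ℝ) * ((Fintype.card Ω : ℝ) * ((D : ℝ) ^ 2 * (dform Q f / q))) * q
        = (Fintype.card Ω : ℝ) * ((Fintype.card Ω : ℝ) * ((D : ℝ) ^ 2 * dform Q f)) := by
      field_simp
    rw [← h5, ← sum_mul]
    have := mul_le_mul_of_nonneg_right hsum hq.le
    simp only [mul_zero, sub_zero, ne_eq, OfNat.ofNat_ne_zero, not_false_eq_true, zero_pow] at this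
    linarith
  rw [← sum_mul] at key
  by_cases hN0 : (Fintype.card Ω : ℝ) = 0
  · have : IsEmpty Ω := by
      rw [← Fintype.card_eq_zero_iff]
      exact_mod_cast hN0
    simp
  · have hNpos : (0 : ℝ) < Fintype.card Ω := lt_of_le_of_ne hN (Ne.symm hN0)
    have : (Fintype.card Ω : ℝ) * (2 * q * ∑ x, f x ^ 2)
        ≤ (Fintype.card Ω : ℝ) * ((Fintype.card Ω : ℝ) * (D : ℝ) ^ 2 * dform Q f) := by
      nlinarith
    exact le_of_mul_le_mul_left this hNpos

end

section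
variable {Ω : Type} [Fintype Ω] [DecidableEq Ω]

theorem pow_le_inv_one_add (γ : ℝ) (h0 : 0 ≤ γ) (h1 : γ ≤ 1) (t : ℕ) :
    (1 - γ) ^ t * (1 + t * γ) ≤ 1 := by
  have h2 : 1 + (t : ℝ) * γ ≤ (1 + γ) ^ t := one_add_mul_le_pow (by linarith) t
  have h3 : (1 - γ) ^ t * (1 + γ) ^ t ≤ 1 := by
    rw [← mul_pow]
    have : (1 - γ) * (1 + γ) ≤ 1 := by nlinarith
    have h4 : 0 ≤ (1 - γ) * (1 + γ) := mul_nonneg (by linarith) (by linarith)
    exact pow_le_one₀ h4 this
  have h5 : 0 ≤ (1 - γ) ^ t := pow_nonneg (by linarith) t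
  calc (1 - γ) ^ t * (1 + t * γ) ≤ (1 - γ) ^ t * (1 + γ) ^ t := mul_le_mul_of_nonneg_left h2 h5
    _ ≤ 1 := h3

/-- Mixing bound in total variation for a lazy symmetric chain whose transition graph is
connected by chains of length at most `D` of transitions of probability at least `q / 2`. -/
theorem lazy_chain_tv (Q : Ω → Ω → ℝ) (hQsymm : ∀ x y, Q x y = Q y x) (hQnn : ∀ x y, 0 ≤ Q x y)
    (hQrow : ∀ x, ∑ y, Q x y = 1)
    (q : ℝ) (hq : 0 < q) (hq1 : q ≤ 1) (D : ℕ) (hD : 1 ≤ D)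
    (hconn : ∀ x y, ∃ k ≤ D, Reach (fun u v => q ≤ Q u v) k x y)
    (P : Matrix Ω Ω ℝ)
    (hP : ∀ x y, P x y = (1 / 2) * (if x = y then 1 else 0) + (1 / 2) * Q x y)
    (t : ℕ) (ht : 8 * (Fintype.card Ω : ℝ) ^ 2 * (D : ℝ) ^ 2 / q ≤ t) (x : Ω) :
    (1 / 2) * ∑ y, |(P ^ t) x y - 1 / (Fintype.card Ω : ℝ)| ≤ 1 / 4 := by
  have hNpos : (0 : ℝ) < Fintype.card Ω := by
    have : 0 < Fintype.card Ω := Fintype.card_pos_iff.mpr ⟨x⟩
    exact_mod_cast this
  have hN1 : (1 : ℝ) ≤ Fintype.card Ω := by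
    have : 1 ≤ Fintype.card Ω := Fintype.card_pos_iff.mpr ⟨x⟩
    exact_mod_cast this
  have hDpos : (0 : ℝ) < D := by exact_mod_cast hD
  have hD1 : (1 : ℝ) ≤ D := by exact_mod_cast hD
  set N : ℝ := (Fintype.card Ω : ℝ) with hNdef
  obtain ⟨γ, hγ⟩ : ∃ γ : ℝ, γ = q / (2 * N * (D : ℝ) ^ 2) := ⟨_, rfl⟩
  have hden : 0 < 2 * N * (D : ℝ) ^ 2 := by positivity
  have hγ0 : 0 < γ := by rw [hγ]; positivity
  have hγ1 : γ ≤ 1 := by
    rw [hγ, div_le_one hden]
    have : (1 : ℝ) ≤ (D : ℝ) ^ 2 := one_le_pow₀ hD1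
    nlinarith
  -- the evolution
  have hstep : ∀ s : ℕ, ∀ y, (P ^ (s + 1)) x y - 1 / N
      = lazyStep Q (fun z => (P ^ s) x z - 1 / N) y := by
    intro s y
    rw [pow_succ, Matrix.mul_apply]
    unfold lazyStep
    have h1 : ∑ z, (P ^ s) x z * P z y
        = (1 / 2) * (P ^ s) x y + (1 / 2) * ∑ z, Q y z * (P ^ s) x z := by
      have : ∀ z, (P ^ s) x z * P z y
          = (1 / 2) * ((P ^ s) x z * (if z = y then 1 else 0)) + (1 / 2) * (Q y z * (P ^ s) x z) := by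
        intro z
        rw [hP z y, hQsymm z y]
        ring
      rw [sum_congr rfl fun z _ => this z, sum_add_distrib, ← mul_sum, ← mul_sum]
      congr 2
      simp
    have h2 : ∑ z, Q y z * ((P ^ s) x z - 1 / N) = ∑ z, Q y z * (P ^ s) x z - 1 / N := by
      have : ∀ z, Q y z * ((P ^ s) x z - 1 / N) = Q y z * (P ^ s) x z - Q y z * (1 / N) := by
        intro z; ring
      rw [sum_congr rfl fun z _ => this z, sum_sub_distrib, ← sum_mul, hQrow y, one_mul]
    rw [h1, h2]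
    ring
  have hinv : ∀ s : ℕ, (∑ y, ((P ^ s) x y - 1 / N) = 0) ∧
      (∑ y, ((P ^ s) x y - 1 / N) ^ 2 ≤ (1 - γ) ^ s) := by
    intro s
    induction s with
    | zero =>
      have hone : ∀ y, (P ^ 0) x y = if x = y then 1 else 0 := by
        intro y
        rw [pow_zero, Matrix.one_apply]
      constructor
      · rw [sum_sub_distrib]
        simp only [hone, sum_ite_eq, mem_univ, if_true, sum_const, card_univ, nsmul_eq_mul]
        rw [← hNdef]
        field_simp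
        ring
      · have : ∀ y, ((P ^ 0) x y - 1 / N) ^ 2
            = (if x = y then 1 else 0) * (1 - 2 / N) + 1 / N ^ 2 := by
          intro y
          rw [hone y]
          split_ifs <;> ring
        rw [sum_congr rfl fun y _ => this y, sum_add_distrib, ← sum_mul]
        simp only [sum_ite_eq, mem_univ, if_true, sum_const, card_univ, nsmul_eq_mul, pow_zero]
        rw [← hNdef]
        have : N * (1 / N ^ 2) = 1 / N := by field_simp
        rw [this]
        have hpos : 0 < 1 / N := by positivity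
        have h2N : 2 / N = 2 * (1 / N) := by ring
        rw [h2N]
        linarith
    | succ s ih =>
      obtain ⟨ih1, ih2⟩ := ih
      have hfun : (fun y => (P ^ (s + 1)) x y - 1 / N)
          = lazyStep Q (fun z => (P ^ s) x z - 1 / N) := funext (hstep s)
      constructor
      · have := sum_lazyStep Q hQsymm hQrow (fun z => (P ^ s) x z - 1 / N)
        rw [← hfun] at this
        rw [this, ih1]
      · have h1 := sum_lazyStep_sq_le Q hQsymm hQnn hQrow (fun z => (P ^ s) x z - 1 / N)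
        rw [← hfun] at h1
        have h2 := poincare Q hQnn q hq D hconn (fun z => (P ^ s) x z - 1 / N) ih1
        simp only at h1 h2
        rw [← hNdef] at h2
        set A := ∑ y, ((P ^ s) x y - 1 / N) ^ 2 with hA
        have hA0 : 0 ≤ A := sum_nonneg fun y _ => sq_nonneg _
        set F := dform Q (fun z => (P ^ s) x z - 1 / N) with hF
        have h3 : γ * A ≤ F / 4 := by
          rw [hγ, div_mul_eq_mul_div, div_le_iff₀ hden]
          nlinarith
        calc ∑ y, ((P ^ (s + 1)) x y - 1 / N) ^ 2 ≤ A - F / 4 := h1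
          _ ≤ (1 - γ) * A := by linarith
          _ ≤ (1 - γ) * (1 - γ) ^ s := mul_le_mul_of_nonneg_left ih2 (by linarith)
          _ = (1 - γ) ^ (s + 1) := by ring
  obtain ⟨_, hsq⟩ := hinv t
  have hcs : (∑ y, |(P ^ t) x y - 1 / N|) ^ 2 ≤ N * ∑ y, ((P ^ t) x y - 1 / N) ^ 2 := by
    have := sq_sum_le_card_mul_sum_sq (s := (univ : Finset Ω)) (f := fun y => |(P ^ t) x y - 1 / N|)
    simp only [sq_abs, card_univ] at this
    rw [hNdef]
    exact this
  have hpow := pow_le_inv_one_add γ hγ0.le hγ1 t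
  have htγ : 4 * N ≤ t * γ := by
    rw [hγ, ← mul_div_assoc, le_div_iff₀ hden]
    rw [div_le_iff₀ hq] at ht
    nlinarith
  have hpw0 : 0 ≤ (1 - γ) ^ t := pow_nonneg (by linarith) t
  have hfin : N * (1 - γ) ^ t ≤ 1 / 4 := by
    have h1 : (1 - γ) ^ t * (1 + 4 * N) ≤ 1 := by
      calc (1 - γ) ^ t * (1 + 4 * N) ≤ (1 - γ) ^ t * (1 + t * γ) :=
            mul_le_mul_of_nonneg_left (by linarith) hpw0
        _ ≤ 1 := hpow
    nlinarith
  have hS : (∑ y, |(P ^ t) x y - 1 / N|) ^ 2 ≤ 1 / 4 := by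
    calc (∑ y, |(P ^ t) x y - 1 / N|) ^ 2 ≤ N * ∑ y, ((P ^ t) x y - 1 / N) ^ 2 := hcs
      _ ≤ N * (1 - γ) ^ t := mul_le_mul_of_nonneg_left hsq hNpos.le
      _ ≤ 1 / 4 := hfin
  have hS0 : 0 ≤ ∑ y, |(P ^ t) x y - 1 / N| := sum_nonneg fun y _ => abs_nonneg _
  nlinarith

end

end Vale.Agent.Lib.P335
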