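import Vale.Agent.Lib.P335.SplitTable
import Vale.Agent.Lib.P335.Bip.Defs

/-!
# Transfer of the table Poincare inequality to split classes (problem P335)
-/

namespace Vale.Agent.Lib.P335

open Finset
open Classical

variable {n : ℕ}

theorem sym2_row_col {U : Finset (Fin n)} (k a : RowT U) (l b : ColT U) :
    s(k.1, l.1) = s(a.1, b.1) ↔ k = a ∧ l = b := by
  rw [Sym2.eq_iff]
  constructor
  · rintro (⟨h1, h2⟩ | ⟨h1, _⟩)
    · exact ⟨Subtype.ext h1, Subtype.ext h2⟩
    · exact absurd h1 (row_ne_col k b)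
  · rintro ⟨rfl, rfl⟩
    exact Or.inl ⟨rfl, rfl⟩

theorem sym2_row_col' {U : Finset (Fin n)} (k a : RowT U) (l b : ColT U) :
    s(k.1, l.1) = s(b.1, a.1) ↔ k = a ∧ l = b := by
  rw [Sym2.eq_swap (a := b.1)]
  exact sym2_row_col k a l b

theorem mem_swRow {R C : Type} [DecidableEq R] [DecidableEq C] (x : R → Finset C) (i i' : R)
    (j j' : C) (hii : i ≠ i') (k : R) (l : C) :
    l ∈ Bip.swRow x i i' j j' k ↔
      (k = i' ∧ (l = j ∨ (l ≠ j' ∧ l ∈ x i'))) ∨ (k = i ∧ (l = j' ∨ (l ≠ j ∧ l ∈ x i))) ∨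
        (k ≠ i' ∧ k ≠ i ∧ l ∈ x k) := by
  unfold Bip.swRow
  by_cases hk' : k = i'
  · subst hk'
    rw [Function.update_self]
    simp only [mem_insert, mem_erase]
    have : k ≠ i := Ne.symm hii
    tauto
  · rw [Function.update_of_ne hk']
    by_cases hk : k = i
    · subst hk
      rw [Function.update_self]
      simp only [mem_insert, mem_erase]
      tauto
    · rw [Function.update_of_ne hk]
      tauto

/-- The table of the graph after a switch on a row-column rectangle. -/
theorem rowOf_switch {U : Finset (Fin n)} (E : Finset (Sym2 (Fin n))) (i i' : RowT U)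
    (j j' : ColT U) (hii : i ≠ i') (hjj : j ≠ j') :
    rowOf U ((E \ {s(i.1, j.1), s(j'.1, i'.1)}) ∪ {s(i.1, j'.1), s(j.1, i'.1)})
      = Bip.swRow (rowOf U E) i i' j j' := by
  funext k
  ext l
  rw [mem_rowOf, mem_swRow _ _ _ _ _ hii]
  simp only [mem_union, mem_sdiff, mem_insert, mem_singleton, sym2_row_col, sym2_row_col',
    mem_rowOf]
  by_cases hk' : k = i'
  · subst hk'
    have hki : k ≠ i := Ne.symm hii
    by_cases hlj : l = j
    · subst hlj
      simp [hki, hjj]
    · by_cases hlj' : l = j'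
      · subst hlj'
        simp [hki, hlj]
      · simp [hki, hlj, hlj']
  · by_cases hk : k = i
    · subst hk
      by_cases hlj : l = j
      · subst hlj
        simp [hk', hjj]
      · by_cases hlj' : l = j'
        · subst hlj'
          simp [hk', hlj]
        · simp [hk', hlj, hlj']
    · simp [hk, hk']

/-- A table switch between the tables of two graphs of a split class is a switch of the chain. -/
theorem adj_to_step {d : Fin n → ℕ} {U : Finset (Fin n)}
    (hsplit : ∀ G : Omega d, IsSplit U G.1) (G G' : Omega d)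
    (h : Bip.AdjIn univ (rowOf U G.1) (rowOf U G'.1)) :
    G ≠ G' ∧ ∃ p : Proposal n, step G p = G' := by
  obtain ⟨i, i', j, j', -, -, hsw, hy⟩ := h
  obtain ⟨hii, hjj, h1, h2, h3, h4⟩ := hsw
  constructor
  · rintro rfl
    have hj : j ∈ rowOf U G.1 i := h1
    rw [hy, mem_swRow _ _ _ _ _ hii] at hj
    rcases hj with ⟨h, _⟩ | ⟨_, h | ⟨h, _⟩⟩ | ⟨_, h, _⟩
    · exact hii h
    · exact hjj h
    · exact h rfl
    · exact h rfl
  · rw [mem_rowOf] at h1 h2 h3 h4
    have d1 : i.1 ≠ j.1 := row_ne_col i j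
    have d2 : i.1 ≠ j'.1 := row_ne_col i j'
    have d3 : i.1 ≠ i'.1 := fun h => hii (Subtype.ext h)
    have d4 : j.1 ≠ j'.1 := fun h => hjj (Subtype.ext h)
    have d5 : j.1 ≠ i'.1 := (row_ne_col i' j).symm
    have d6 : j'.1 ≠ i'.1 := (row_ne_col i' j').symm
    refine ⟨⟨(i.1, j.1, j'.1, i'.1), d1, d2, d3, d4, d5, d6⟩, ?_⟩
    apply Subtype.ext
    apply split_ext (hsplit _) (hsplit G')
    rw [hy]
    show rowOf U (switchSet G.1 i.1 j.1 j'.1 i'.1) = _
    unfold switchSet
    have h4' : s(j'.1, i'.1) ∈ G.1 := by rw [Sym2.eq_swap]; exact h4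
    have h3' : s(j.1, i'.1) ∉ G.1 := by rw [Sym2.eq_swap]; exact h3
    rw [if_pos ⟨h1, h4', h2, h3'⟩]
    exact rowOf_switch G.1 i i' j j' hii hjj

/-- row sizes of the table of a split class -/
def rowSum (d : Fin n → ℕ) (U : Finset (Fin n)) (u : RowT U) : ℕ := d u.1 - (U.card - 1)

/-- column counts of the table of a split class -/
def colSum (d : Fin n → ℕ) (U : Finset (Fin n)) (w : ColT U) : ℕ := d w.1

theorem isTable_rowOf {d : Fin n → ℕ} {U : Finset (Fin n)} {E : Finset (Sym2 (Fin n))}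
    (hE : IsRealization d E) (hS : IsSplit U E) :
    Bip.IsTable (rowSum d U) (colSum d U) (rowOf U E) := by
  constructor
  · intro u
    have := deg_row hS u
    rw [hE.2 u.1] at this
    unfold rowSum
    omega
  · intro w
    have := deg_col hS w
    rw [hE.2 w.1] at this
    exact this.symm

theorem isRealization_ofTable {d : Fin n → ℕ} {U : Finset (Fin n)}
    (hdU : ∀ u ∈ U, U.card - 1 ≤ d u) {x : RowT U → Finset (ColT U)}
    (hx : Bip.IsTable (rowSum d U) (colSum d U) x) : IsRealization d (ofTable U x) := by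
  have hS := isSplit_ofTable U x
  refine ⟨hS.1, ?_⟩
  intro v
  by_cases hv : v ∈ U
  · have h1 := deg_row hS ⟨v, hv⟩
    rw [rowOf_ofTable, hx.1 ⟨v, hv⟩] at h1
    have h2 := hdU v hv
    show (nbrs (ofTable U x) v).card = d v
    rw [h1]
    unfold rowSum
    show U.card - 1 + (d v - (U.card - 1)) = d v
    omega
  · have h1 := deg_col hS ⟨v, mem_compl.mpr hv⟩
    rw [rowOf_ofTable] at h1
    show (nbrs (ofTable U x) v).card = d v
    rw [h1]
    exact hx.2 ⟨v, mem_compl.mpr hv⟩

/-- The Poincare inequality of a split class from the Poincare inequality of its tables. -/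
theorem split_poincare_of_bip (d : Fin n → ℕ) (U : Finset (Fin n))
    (hsplit : ∀ G : Omega d, IsSplit U G.1)
    (hbip : ∀ F : Bip.Tab (rowSum d U) (colSum d U) → ℝ, ∑ x, F x = 0 →
      4 * Bip.ip F F ≤ Bip.energyIn univ F)
    (f : Omega d → ℝ) (hf : ∑ G, f G = 0) :
    4 * ∑ G, f G ^ 2 ≤ ∑ G : Omega d, ∑ G' : Omega d,
      if (G ≠ G' ∧ ∃ p : Proposal n, step G p = G') then (f G - f G') ^ 2 else 0 := by
  rcases isEmpty_or_nonempty (Omega d) with hemp | ⟨⟨G₀⟩⟩
  · simp
  have hdU : ∀ u ∈ U, U.card - 1 ≤ d u := by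
    intro u hu
    have := deg_row (hsplit G₀) ⟨u, hu⟩
    rw [G₀.2.2 u] at this
    omega
  let e : Omega d ≃ Bip.Tab (rowSum d U) (colSum d U) :=
    { toFun := fun G => ⟨rowOf U G.1, isTable_rowOf G.2 (hsplit G)⟩
      invFun := fun x => ⟨ofTable U x.1, isRealization_ofTable hdU x.2⟩
      left_inv := fun G =>
        Subtype.ext (split_ext (isSplit_ofTable U _) (hsplit G) (rowOf_ofTable U _))
      right_inv := fun x => Subtype.ext (rowOf_ofTable U x.1) }
  have h := hbip (fun x => f (e.symm x)) (by rw [Equiv.sum_comp e.symm f]; exact hf)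
  have hL : Bip.ip (fun x => f (e.symm x)) (fun x => f (e.symm x)) = ∑ G, f G ^ 2 := by
    unfold Bip.ip
    rw [← Equiv.sum_comp e]
    refine sum_congr rfl fun G _ => ?_
    simp only [Equiv.symm_apply_apply]
    ring
  have hR : Bip.energyIn univ (fun x => f (e.symm x))
      = ∑ G : Omega d, ∑ G' : Omega d,
          if Bip.AdjIn univ (rowOf U G.1) (rowOf U G'.1) then (f G - f G') ^ 2 else 0 := by
    unfold Bip.energyIn
    rw [← Equiv.sum_comp e]
    refine sum_congr rfl fun G _ => ?_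
    rw [← Equiv.sum_comp e]
    refine sum_congr rfl fun G' _ => ?_
    simp only [Equiv.symm_apply_apply]
    rfl
  rw [hL, hR] at h
  refine le_trans h ?_
  refine sum_le_sum fun G _ => sum_le_sum fun G' _ => ?_
  by_cases h1 : Bip.AdjIn univ (rowOf U G.1) (rowOf U G'.1)
  · rw [if_pos h1, if_pos (adj_to_step hsplit G G' h1)]
  · rw [if_neg h1]
    split_ifs
    · exact sq_nonneg _
    · exact le_refl _

end Vale.Agent.Lib.P335
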