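import Vale.Agent.Lib.P335.Split

/-!
# Split graphs as 0/1 tables (problem P335)

For a vertex set `U`, a graph in which `U` is a clique and the complement of `U` is independent
is determined by its bipartite part, a table `rowOf U E : RowT U → Finset (ColT U)`.
-/

namespace Vale.Agent.Lib.P335

open Finset
open Classical

variable {n : ℕ}

/-- `U` is a clique and its complement is independent in the loopless graph `E`. -/
def IsSplit (U : Finset (Fin n)) (E : Finset (Sym2 (Fin n))) : Prop :=
  (∀ e ∈ E, ¬ e.IsDiag) ∧ (∀ u ∈ U, ∀ u' ∈ U, u ≠ u' → s(u, u') ∈ E) ∧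
    (∀ w ∈ Uᶜ, ∀ w' ∈ Uᶜ, s(w, w') ∉ E)

/-- rows: the vertices of `U` -/
abbrev RowT (U : Finset (Fin n)) : Type := {u : Fin n // u ∈ U}

/-- columns: the vertices outside `U` -/
abbrev ColT (U : Finset (Fin n)) : Type := {w : Fin n // w ∈ Uᶜ}

/-- the table of a graph: row `u` is the set of neighbours of `u` outside `U` -/
def rowOf (U : Finset (Fin n)) (E : Finset (Sym2 (Fin n))) (u : RowT U) : Finset (ColT U) :=
  univ.filter (fun w => s(u.1, w.1) ∈ E)

theorem mem_rowOf {U : Finset (Fin n)} {E : Finset (Sym2 (Fin n))} {u : RowT U} {w : ColT U} :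
    w ∈ rowOf U E u ↔ s(u.1, w.1) ∈ E := by
  simp [rowOf]

theorem row_ne_col {U : Finset (Fin n)} (u : RowT U) (w : ColT U) : u.1 ≠ w.1 := by
  intro h
  have h1 := u.2
  have h2 := w.2
  rw [mem_compl] at h2
  rw [h] at h1
  exact h2 h1

theorem isSplit_of_HS {d : Fin n → ℕ} {U : Finset (Fin n)}
    (hHS : ∑ u ∈ U, d u = U.card * (U.card - 1) + ∑ w ∈ Uᶜ, d w)
    {E : Finset (Sym2 (Fin n))} (hE : IsRealization d E) : IsSplit U E :=
  ⟨hE.1, (split_structure hHS hE).1, (split_structure hHS hE).2⟩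

theorem deg_row {U : Finset (Fin n)} {E : Finset (Sym2 (Fin n))} (hS : IsSplit U E)
    (u : RowT U) : (nbrs E u.1).card = (U.card - 1) + (rowOf U E u).card := by
  rw [card_nbrs_inout E U u.1]
  have h1 : nbIn E U u.1 = U.erase u.1 := by
    ext x
    simp only [nbIn, mem_filter, mem_erase]
    constructor
    · rintro ⟨hx, hxE⟩
      refine ⟨?_, hx⟩
      rintro rfl
      exact hS.1 _ hxE (by simp)
    · rintro ⟨hne, hx⟩
      exact ⟨hx, hS.2.1 u.1 u.2 x hx (Ne.symm hne)⟩
  have h2 : nbIn E Uᶜ u.1 = (rowOf U E u).map (Function.Embedding.subtype _) := by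
    ext x
    simp only [nbIn, mem_filter, mem_map, Function.Embedding.coe_subtype, rowOf, mem_univ,
      true_and, Subtype.exists, exists_and_right, exists_eq_right]
    constructor
    · rintro ⟨hx, hxE⟩
      exact ⟨hx, hxE⟩
    · rintro ⟨hx, hxE⟩
      exact ⟨hx, hxE⟩
  rw [h1, h2, card_map, card_erase_of_mem u.2]

theorem deg_col {U : Finset (Fin n)} {E : Finset (Sym2 (Fin n))} (hS : IsSplit U E)
    (w : ColT U) :
    (nbrs E w.1).card = (univ.filter (fun u : RowT U => w ∈ rowOf U E u)).card := by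
  rw [card_nbrs_inout E U w.1]
  have h1 : nbIn E Uᶜ w.1 = ∅ := by
    ext x
    simp only [nbIn, mem_filter, notMem_empty, iff_false, not_and]
    intro hx
    exact hS.2.2 w.1 w.2 x hx
  have h2 : nbIn E U w.1
      = (univ.filter (fun u : RowT U => w ∈ rowOf U E u)).map (Function.Embedding.subtype _) := by
    ext x
    simp only [nbIn, mem_filter, mem_map, Function.Embedding.coe_subtype, rowOf, mem_univ,
      true_and, Subtype.exists, exists_and_right, exists_eq_right]
    constructor
    · rintro ⟨hx, hxE⟩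
      refine ⟨hx, ?_⟩
      rw [Sym2.eq_swap]
      exact hxE
    · rintro ⟨hx, hxE⟩
      refine ⟨hx, ?_⟩
      rw [Sym2.eq_swap]
      exact hxE
  rw [h1, h2, card_map, card_empty, add_zero]

/-- A split graph is determined by its table. -/
theorem split_ext {U : Finset (Fin n)} {E E' : Finset (Sym2 (Fin n))} (hS : IsSplit U E)
    (hS' : IsSplit U E') (h : rowOf U E = rowOf U E') : E = E' := by
  have key : ∀ (a b : Fin n), a ∈ U → b ∈ Uᶜ → (s(a, b) ∈ E ↔ s(a, b) ∈ E') := by
    intro a b ha hb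
    have := congrFun h ⟨a, ha⟩
    have h2 : (⟨b, hb⟩ : ColT U) ∈ rowOf U E ⟨a, ha⟩ ↔ (⟨b, hb⟩ : ColT U) ∈ rowOf U E' ⟨a, ha⟩ := by
      rw [this]
    simpa [mem_rowOf] using h2
  ext e
  induction e using Sym2.ind with
  | _ a b =>
    by_cases ha : a ∈ U
    · by_cases hb : b ∈ U
      · by_cases hab : a = b
        · subst hab
          constructor
          · intro h1
            exact absurd h1 (fun h1 => hS.1 _ h1 (by simp))
          · intro h1
            exact absurd h1 (fun h1 => hS'.1 _ h1 (by simp))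
        · constructor
          · intro _
            exact hS'.2.1 a ha b hb hab
          · intro _
            exact hS.2.1 a ha b hb hab
      · exact key a b ha (mem_compl.mpr hb)
    · by_cases hb : b ∈ U
      · rw [Sym2.eq_swap]
        exact key b a hb (mem_compl.mpr ha)
      · constructor
        · intro h1
          exact absurd h1 (hS.2.2 a (mem_compl.mpr ha) b (mem_compl.mpr hb))
        · intro h1
          exact absurd h1 (hS'.2.2 a (mem_compl.mpr ha) b (mem_compl.mpr hb))

/-- the adjacency relation of the split graph with a given table -/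
def tableRel (U : Finset (Fin n)) (x : RowT U → Finset (ColT U)) (a b : Fin n) : Prop :=
  (a ∈ U ∧ b ∈ U ∧ a ≠ b) ∨ (∃ (ha : a ∈ U) (hb : b ∈ Uᶜ), (⟨b, hb⟩ : ColT U) ∈ x ⟨a, ha⟩) ∨
    (∃ (hb : b ∈ U) (ha : a ∈ Uᶜ), (⟨a, ha⟩ : ColT U) ∈ x ⟨b, hb⟩)

theorem tableRel_symm (U : Finset (Fin n)) (x : RowT U → Finset (ColT U)) :
    Std.Symm (tableRel U x) := by
  constructor
  intro a b h
  rcases h with ⟨ha, hb, hab⟩ | h | h
  · exact Or.inl ⟨hb, ha, Ne.symm hab⟩
  · exact Or.inr (Or.inr h)
  · exact Or.inr (Or.inl h)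

/-- the split graph with a given table -/
noncomputable def ofTable (U : Finset (Fin n)) (x : RowT U → Finset (ColT U)) :
    Finset (Sym2 (Fin n)) :=
  univ.filter (fun e => e ∈ Sym2.fromRel (tableRel_symm U x))

theorem mem_ofTable {U : Finset (Fin n)} {x : RowT U → Finset (ColT U)} {a b : Fin n} :
    s(a, b) ∈ ofTable U x ↔ tableRel U x a b := by
  simp [ofTable, Sym2.fromRel_prop]

theorem isSplit_ofTable (U : Finset (Fin n)) (x : RowT U → Finset (ColT U)) :
    IsSplit U (ofTable U x) := by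
  refine ⟨?_, ?_, ?_⟩
  · intro e he hdiag
    induction e using Sym2.ind with
    | _ a b =>
      have hab : a = b := by simpa using hdiag
      subst hab
      rw [mem_ofTable] at he
      rcases he with ⟨_, _, h⟩ | ⟨ha, hb, _⟩ | ⟨hb, ha, _⟩
      · exact h rfl
      · exact (mem_compl.mp hb) ha
      · exact (mem_compl.mp ha) hb
  · intro u hu u' hu' hne
    rw [mem_ofTable]
    exact Or.inl ⟨hu, hu', hne⟩
  · intro w hw w' hw' h
    rw [mem_ofTable] at h
    rcases h with ⟨ha, _, _⟩ | ⟨ha, _, _⟩ | ⟨hb, _, _⟩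
    · exact (mem_compl.mp hw) ha
    · exact (mem_compl.mp hw) ha
    · exact (mem_compl.mp hw') hb

theorem rowOf_ofTable (U : Finset (Fin n)) (x : RowT U → Finset (ColT U)) :
    rowOf U (ofTable U x) = x := by
  funext u
  ext w
  rw [mem_rowOf, mem_ofTable]
  constructor
  · rintro (⟨_, hb, _⟩ | ⟨_, _, h⟩ | ⟨hb, _, _⟩)
    · exact absurd hb (mem_compl.mp w.2)
    · exact h
    · exact absurd hb (mem_compl.mp w.2)
  · intro h
    exact Or.inr (Or.inl ⟨u.2, w.2, h⟩)

end Vale.Agent.Lib.P335
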