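import Vale.Agent.Lib.P335.Defs
import Vale.Agent.Lib.P335.Markov

/-!
# Combinatorics of switches: reversibility and connectivity of the switch chain
-/

namespace Vale.Agent.Lib.P335

open Finset
open Classical

variable {n : ℕ}

theorem sym2_ne_of {x y u v : Fin n} (h1 : x ≠ u ∨ y ≠ v) (h2 : x ≠ v ∨ y ≠ u) :
    s(x, y) ≠ s(u, v) := by
  rw [Ne, Sym2.eq_iff]
  tauto

theorem switchSet_valid {E : Finset (Sym2 (Fin n))} {a b c e : Fin n}
    (h1 : s(a, b) ∈ E) (h2 : s(c, e) ∈ E) (h3 : s(a, c) ∉ E) (h4 : s(b, e) ∉ E) :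
    switchSet E a b c e = (E \ {s(a, b), s(c, e)}) ∪ {s(a, c), s(b, e)} := by
  unfold switchSet
  rw [if_pos ⟨h1, h2, h3, h4⟩]

theorem switchSet_inverse {E : Finset (Sym2 (Fin n))} {a b c e : Fin n}
    (hab : a ≠ b) (hac : a ≠ c) (hae : a ≠ e) (hbc : b ≠ c) (_hbe : b ≠ e) (hce : c ≠ e)
    (hne : switchSet E a b c e ≠ E) : switchSet (switchSet E a b c e) a c b e = E := by
  by_cases h : s(a, b) ∈ E ∧ s(c, e) ∈ E ∧ s(a, c) ∉ E ∧ s(b, e) ∉ E
  · obtain ⟨h1, h2, h3, h4⟩ := h
    rw [switchSet_valid h1 h2 h3 h4]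
    have n1 : s(a, b) ≠ s(a, c) := sym2_ne_of (Or.inr hbc) (Or.inl hac)
    have n2 : s(a, b) ≠ s(b, e) := sym2_ne_of (Or.inl hab) (Or.inl hae)
    have n3 : s(c, e) ≠ s(a, c) := sym2_ne_of (Or.inl hac.symm) (Or.inr hae.symm)
    have n4 : s(c, e) ≠ s(b, e) := sym2_ne_of (Or.inl hbc.symm) (Or.inl hce)
    have k1 : s(a, c) ∈ (E \ {s(a, b), s(c, e)}) ∪ {s(a, c), s(b, e)} := by simp
    have k2 : s(b, e) ∈ (E \ {s(a, b), s(c, e)}) ∪ {s(a, c), s(b, e)} := by simp
    have k3 : s(a, b) ∉ (E \ {s(a, b), s(c, e)}) ∪ {s(a, c), s(b, e)} := by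
      simp only [mem_union, mem_sdiff, mem_insert, mem_singleton]
      tauto
    have k4 : s(c, e) ∉ (E \ {s(a, b), s(c, e)}) ∪ {s(a, c), s(b, e)} := by
      simp only [mem_union, mem_sdiff, mem_insert, mem_singleton]
      tauto
    rw [switchSet_valid k1 k2 k3 k4]
    ext z
    simp only [mem_union, mem_sdiff, mem_insert, mem_singleton]
    have hz1 : z = s(a, b) → z ∈ E := fun hh => hh ▸ h1
    have hz2 : z = s(c, e) → z ∈ E := fun hh => hh ▸ h2
    have hz3 : z = s(a, c) → z ∉ E := fun hh => hh ▸ h3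
    have hz4 : z = s(b, e) → z ∉ E := fun hh => hh ▸ h4
    tauto
  · exfalso
    apply hne
    unfold switchSet
    rw [if_neg h]

/-- exchanging the roles of the two matchings of a proposal -/
def flipP (p : Proposal n) : Proposal n :=
  ⟨(p.1.1, p.1.2.2.1, p.1.2.1, p.1.2.2.2),
    p.2.2.1, p.2.1, p.2.2.2.1, p.2.2.2.2.1.symm, p.2.2.2.2.2.2, p.2.2.2.2.2.1⟩

theorem flipP_flipP (p : Proposal n) : flipP (flipP p) = p := by
  apply Subtype.ext
  rfl

theorem step_flip {d : Fin n → ℕ} {G G' : Omega d} {p : Proposal n}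
    (h : step G p = G') (hne : G ≠ G') : step G' (flipP p) = G := by
  subst h
  apply Subtype.ext
  have hne' : switchSet G.1 p.1.1 p.1.2.1 p.1.2.2.1 p.1.2.2.2 ≠ G.1 := by
    intro hh
    apply hne
    apply Subtype.ext
    exact hh.symm
  exact switchSet_inverse p.2.1 p.2.2.1 p.2.2.2.1 p.2.2.2.2.1 p.2.2.2.2.2.1 p.2.2.2.2.2.2 hne'

/-- the proposal-counting kernel of the chain -/
noncomputable def Qker (d : Fin n → ℕ) (G G' : Omega d) : ℝ :=
  ((Finset.univ.filter (fun p : Proposal n => step G p = G')).card : ℝ)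
    / (Fintype.card (Proposal n) : ℝ)

theorem card_step_symm {d : Fin n → ℕ} (G G' : Omega d) :
    (Finset.univ.filter (fun p : Proposal n => step G p = G')).card
      = (Finset.univ.filter (fun p : Proposal n => step G' p = G)).card := by
  by_cases hne : G = G'
  · subst hne
    rfl
  · apply Finset.card_nbij' flipP flipP
    · intro p hp
      simp only [coe_filter, mem_univ, true_and, Set.mem_ofPred_eq] at hp ⊢
      exact step_flip hp hne
    · intro p hp
      simp only [coe_filter, mem_univ, true_and, Set.mem_ofPred_eq] at hp ⊢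
      exact step_flip hp (Ne.symm hne)
    · intro p _
      exact flipP_flipP p
    · intro p _
      exact flipP_flipP p

theorem Qker_symm (d : Fin n → ℕ) (G G' : Omega d) : Qker d G G' = Qker d G' G := by
  unfold Qker
  rw [card_step_symm]

theorem Qker_nonneg (d : Fin n → ℕ) (G G' : Omega d) : 0 ≤ Qker d G G' := by
  unfold Qker
  positivity

theorem card_proposal_pos (hn : 4 ≤ n) : 0 < Fintype.card (Proposal n) := by
  rw [Fintype.card_pos_iff]
  refine ⟨⟨(⟨0, by omega⟩, ⟨1, by omega⟩, ⟨2, by omega⟩, ⟨3, by omega⟩), ?_⟩⟩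
  simp [Fin.ext_iff]

theorem card_proposal_le : Fintype.card (Proposal n) ≤ n ^ 4 := by
  calc Fintype.card (Proposal n) ≤ Fintype.card (Fin n × Fin n × Fin n × Fin n) :=
        Fintype.card_subtype_le _
    _ = n ^ 4 := by
        simp only [Fintype.card_prod, Fintype.card_fin]
        ring

theorem Qker_row (hn : 4 ≤ n) (d : Fin n → ℕ) (G : Omega d) : ∑ G', Qker d G G' = 1 := by
  unfold Qker
  rw [← sum_div, ← Nat.cast_sum]
  have h := Finset.card_eq_sum_card_fiberwise (f := step G) (s := (univ : Finset (Proposal n)))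
    (t := (univ : Finset (Omega d))) (fun _ _ => mem_univ _)
  rw [← h, card_univ]
  have := card_proposal_pos hn
  field_simp

theorem Qker_ge {d : Fin n → ℕ} (hn : 4 ≤ n) {G G' : Omega d} {p : Proposal n}
    (h : step G p = G') : 1 / (n : ℝ) ^ 4 ≤ Qker d G G' := by
  unfold Qker
  have h1 : (1 : ℝ) ≤ ((Finset.univ.filter (fun p : Proposal n => step G p = G')).card : ℝ) := by
    have : 0 < (Finset.univ.filter (fun p : Proposal n => step G p = G')).card :=
      card_pos.mpr ⟨p, by simp [h]⟩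
    exact_mod_cast this
  have h2 : (Fintype.card (Proposal n) : ℝ) ≤ (n : ℝ) ^ 4 := by
    exact_mod_cast card_proposal_le (n := n)
  have h3 : (0 : ℝ) < Fintype.card (Proposal n) := by
    exact_mod_cast card_proposal_pos hn
  calc 1 / (n : ℝ) ^ 4 ≤ 1 / (Fintype.card (Proposal n) : ℝ) :=
        one_div_le_one_div_of_le h3 h2
    _ ≤ _ := div_le_div_of_nonneg_right h1 h3.le

/-- the size of the symmetric difference of two edge sets -/
def sdist (E F : Finset (Sym2 (Fin n))) : ℕ := (E \ F).card + (F \ E).card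

theorem sdist_eq_zero {E F : Finset (Sym2 (Fin n))} (h : sdist E F = 0) : E = F := by
  unfold sdist at h
  have h1 : E \ F = ∅ := card_eq_zero.mp (by omega)
  have h2 : F \ E = ∅ := card_eq_zero.mp (by omega)
  exact Subset.antisymm (sdiff_eq_empty_iff_subset.mp h1) (sdiff_eq_empty_iff_subset.mp h2)

theorem sdist_le (E F : Finset (Sym2 (Fin n))) : sdist E F ≤ n ^ 2 := by
  unfold sdist
  have hdisj : Disjoint (E \ F) (F \ E) := by
    rw [disjoint_left]
    intro z hz hz'
    simp only [mem_sdiff] at hz hz'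
    exact hz.2 hz'.1
  rw [← card_union_of_disjoint hdisj]
  calc ((E \ F) ∪ (F \ E)).card ≤ (univ : Finset (Sym2 (Fin n))).card := card_le_card (subset_univ _)
    _ = (n + 1).choose 2 := by rw [card_univ, Sym2.card, Fintype.card_fin]
    _ ≤ n ^ 2 := by
      rw [Nat.choose_two_right]
      have : (n + 1) * (n + 1 - 1) = n * n + n := by
        simp only [Nat.add_sub_cancel]
        ring
      rw [this]
      have h2 : n ≤ n * n := Nat.le_mul_self n
      have h3 : (n * n + n) / 2 ≤ (n * n + n * n) / 2 := Nat.div_le_div_right (by omega)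
      have h4 : (n * n + n * n) / 2 = n * n := by omega
      rw [sq]
      omega

theorem card_nbrs_split (E F : Finset (Sym2 (Fin n))) (v : Fin n) :
    (nbrs E v).card = (nbrs (E ∩ F) v).card + (nbrs (E \ F) v).card := by
  have h := Finset.card_filter_add_card_filter_not (s := nbrs E v)
    (fun x => s(v, x) ∈ F)
  have e1 : (nbrs E v).filter (fun x => s(v, x) ∈ F) = nbrs (E ∩ F) v := by
    ext x
    simp [nbrs]
  have e2 : (nbrs E v).filter (fun x => ¬ s(v, x) ∈ F) = nbrs (E \ F) v := by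
    ext x
    simp [nbrs]
  rw [e1, e2] at h
  exact h.symm

theorem card_nbrs_red_blue {d : Fin n → ℕ} {E F : Finset (Sym2 (Fin n))}
    (hE : IsRealization d E) (hF : IsRealization d F) (v : Fin n) :
    (nbrs (E \ F) v).card = (nbrs (F \ E) v).card := by
  have h1 := card_nbrs_split E F v
  have h2 := card_nbrs_split F E v
  rw [hE.2 v] at h1
  rw [hF.2 v, inter_comm] at h2
  omega

/-- Two distinct realizations: a single switch applied to one of them brings them closer. -/
theorem exists_decreasing {d : Fin n → ℕ} (G H : Omega d) (hne : G ≠ H) :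
    (∃ p : Proposal n, sdist (step G p).1 H.1 < sdist G.1 H.1) ∨
    (∃ p : Proposal n, sdist G.1 (step H p).1 < sdist G.1 H.1) := by
  obtain ⟨E, hE⟩ := G
  obtain ⟨F, hF⟩ := H
  have hEF : E ≠ F := fun h => hne (Subtype.ext h)
  have hdeg : ∀ v, (nbrs (E \ F) v).card = (nbrs (F \ E) v).card := card_nbrs_red_blue hE hF
  have memR : ∀ u w, w ∈ nbrs (E \ F) u ↔ s(u, w) ∈ E ∧ s(u, w) ∉ F := by
    intro u w
    simp [nbrs]
  have memB : ∀ u w, w ∈ nbrs (F \ E) u ↔ s(u, w) ∈ F ∧ s(u, w) ∉ E := by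
    intro u w
    simp [nbrs]
  have hex : ∃ u, 0 < (nbrs (E \ F) u).card := by
    by_contra hcon
    push Not at hcon
    apply hEF
    apply Subset.antisymm
    · intro z hz
      by_contra hzF
      induction z using Sym2.ind with
      | _ u w =>
        have h1 : w ∈ nbrs (E \ F) u := (memR u w).mpr ⟨hz, hzF⟩
        have h2 := card_pos.mpr ⟨w, h1⟩
        have h3 := hcon u
        omega
    · intro z hz
      by_contra hzE
      induction z using Sym2.ind with
      | _ u w =>
        have h1 : w ∈ nbrs (F \ E) u := (memB u w).mpr ⟨hz, hzE⟩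
        have h2 := card_pos.mpr ⟨w, h1⟩
        have h3 := hcon u
        have h4 := hdeg u
        omega
  obtain ⟨u0, hu0⟩ := hex
  obtain ⟨c, -, hcmax⟩ := Finset.exists_max_image (univ : Finset (Fin n))
    (fun v => (nbrs (E \ F) v).card) ⟨u0, mem_univ _⟩
  have hm : 0 < (nbrs (E \ F) c).card := lt_of_lt_of_le hu0 (hcmax u0 (mem_univ _))
  have hBc : 0 < (nbrs (F \ E) c).card := by
    rw [← hdeg c]
    exact hm
  obtain ⟨b, hb⟩ := card_pos.mp hBc
  have hcb := (memB c b).mp hb
  have hBb : c ∈ nbrs (F \ E) b := by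
    rw [memB, Sym2.eq_swap]
    exact hcb
  have hRb : 0 < (nbrs (E \ F) b).card := by
    rw [hdeg b]
    exact card_pos.mpr ⟨c, hBb⟩
  obtain ⟨a, ha⟩ := card_pos.mp hRb
  have hba := (memR b a).mp ha
  have hbc_ne : b ≠ c := by
    rintro rfl
    exact hF.1 _ hcb.1 (by simp)
  have hab_ne : a ≠ b := by
    rintro rfl
    exact hE.1 _ hba.1 (by simp)
  have hac_ne : a ≠ c := by
    rintro rfl
    apply hcb.2
    rw [Sym2.eq_swap]
    exact hba.1
  have hb_notR : b ∉ nbrs (E \ F) c := by
    rw [memR]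
    intro h
    exact hcb.2 h.1
  have hc_notR : c ∉ nbrs (E \ F) c := by
    rw [memR]
    intro h
    exact hE.1 _ h.1 (by simp)
  have hba' : b ∈ nbrs (E \ F) a := by
    rw [memR, Sym2.eq_swap]
    exact hba
  have hclaim : ∃ x ∈ nbrs (E \ F) c, x ≠ a ∧ s(a, x) ∉ E \ F := by
    by_contra hcon
    push Not at hcon
    have hsub : ∀ x ∈ nbrs (E \ F) c, x ≠ a → x ∈ nbrs (E \ F) a := by
      intro x hx hxa
      have h1 := hcon x hx hxa
      rw [memR]
      rw [mem_sdiff] at h1
      exact h1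
    by_cases hac : a ∈ nbrs (E \ F) c
    · have hca : c ∈ nbrs (E \ F) a := by
        rw [memR] at hac ⊢
        rw [Sym2.eq_swap]
        exact hac
      have hT : insert b (insert c ((nbrs (E \ F) c).erase a)) ⊆ nbrs (E \ F) a := by
        intro x hx
        simp only [mem_insert, mem_erase] at hx
        rcases hx with rfl | rfl | ⟨hxa, hx⟩
        · exact hba'
        · exact hca
        · exact hsub x hx hxa
      have hcard := card_le_card hT
      have hn1 : c ∉ (nbrs (E \ F) c).erase a := fun h => hc_notR (mem_of_mem_erase h)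
      have hn2 : b ∉ insert c ((nbrs (E \ F) c).erase a) := by
        simp only [mem_insert, mem_erase, not_or, not_and]
        exact ⟨hbc_ne, fun _ => hb_notR⟩
      rw [card_insert_of_notMem hn2, card_insert_of_notMem hn1, card_erase_of_mem hac] at hcard
      have h5 := hcmax a (mem_univ _)
      omega
    · have hT : insert b (nbrs (E \ F) c) ⊆ nbrs (E \ F) a := by
        intro x hx
        simp only [mem_insert] at hx
        rcases hx with rfl | hx
        · exact hba'
        · exact hsub x hx (fun h => hac (h ▸ hx))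
      have hcard := card_le_card hT
      rw [card_insert_of_notMem hb_notR] at hcard
      have h5 := hcmax a (mem_univ _)
      omega
  obtain ⟨x, hx, hxa, hax⟩ := hclaim
  have hcx := (memR c x).mp hx
  have hcx_ne : c ≠ x := by
    rintro rfl
    exact hE.1 _ hcx.1 (by simp)
  have hbx_ne : b ≠ x := by
    rintro rfl
    exact hcb.2 hcx.1
  -- membership facts in convenient orientation
  have habE : s(a, b) ∈ E := by rw [Sym2.eq_swap]; exact hba.1
  have habF : s(a, b) ∉ F := by rw [Sym2.eq_swap]; exact hba.2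
  have hxcE : s(x, c) ∈ E := by rw [Sym2.eq_swap]; exact hcx.1
  have hxcF : s(x, c) ∉ F := by rw [Sym2.eq_swap]; exact hcx.2
  have hbcF : s(b, c) ∈ F := by rw [Sym2.eq_swap]; exact hcb.1
  have hbcE : s(b, c) ∉ E := by rw [Sym2.eq_swap]; exact hcb.2
  have hne1 : s(x, c) ≠ s(a, b) := sym2_ne_of (Or.inl hxa) (Or.inl hbx_ne.symm)
  have hRab : s(a, b) ∈ E \ F := mem_sdiff.mpr ⟨habE, habF⟩
  have hRxc : s(x, c) ∈ (E \ F).erase (s(a, b)) :=
    mem_erase.mpr ⟨hne1, mem_sdiff.mpr ⟨hxcE, hxcF⟩⟩
  have hBbc : s(b, c) ∈ F \ E := mem_sdiff.mpr ⟨hbcF, hbcE⟩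
  have hcount : (insert (s(a, x)) (((E \ F).erase (s(a, b))).erase (s(x, c)))).card
      + ((F \ E).erase (s(b, c))).card < (E \ F).card + (F \ E).card := by
    have h1 := card_insert_le (s(a, x)) (((E \ F).erase (s(a, b))).erase (s(x, c)))
    have h2 := card_erase_of_mem hRxc
    have h3 := card_erase_of_mem hRab
    have h4 := card_erase_of_mem hBbc
    have h5 := card_pos.mpr ⟨_, hRxc⟩
    have h6 := card_pos.mpr ⟨_, hRab⟩
    have h7 := card_pos.mpr ⟨_, hBbc⟩
    omega
  by_cases haxE : s(a, x) ∈ E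
  · have haxF : s(a, x) ∈ F := by
      by_contra h
      exact hax (mem_sdiff.mpr ⟨haxE, h⟩)
    right
    refine ⟨⟨(b, c, a, x), hbc_ne, hab_ne.symm, hbx_ne, hac_ne.symm, hcx_ne, hxa.symm⟩, ?_⟩
    show sdist E (switchSet F b c a x) < sdist E F
    have hbaF : s(b, a) ∉ F := hba.2
    have hcxF : s(c, x) ∉ F := hcx.2
    rw [switchSet_valid hbcF haxF hbaF hcxF]
    unfold sdist
    have s1 : E \ ((F \ {s(b, c), s(a, x)}) ∪ {s(b, a), s(c, x)})
        ⊆ insert (s(a, x)) (((E \ F).erase (s(a, b))).erase (s(x, c))) := by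
      intro z hz
      simp only [mem_sdiff, mem_union, mem_insert, mem_singleton, mem_erase, not_or, not_and,
        not_not] at hz ⊢
      obtain ⟨hzE, hz1, hz2, hz3⟩ := hz
      by_cases hzF : z ∈ F
      · left
        by_contra hzax
        have := hz1 hzF
        by_cases hzbc : z = s(b, c)
        · exact hbcE (hzbc ▸ hzE)
        · exact hzax (this hzbc)
      · right
        refine ⟨?_, ?_, hzE, hzF⟩
        · rw [Sym2.eq_swap]
          exact hz3
        · rw [Sym2.eq_swap]
          exact hz2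
    have s2 : ((F \ {s(b, c), s(a, x)}) ∪ {s(b, a), s(c, x)}) \ E ⊆ (F \ E).erase (s(b, c)) := by
      intro z hz
      simp only [mem_sdiff, mem_union, mem_insert, mem_singleton, mem_erase, not_or] at hz ⊢
      obtain ⟨hz1, hzE⟩ := hz
      rcases hz1 with ⟨hzF, hzbc, _⟩ | rfl | rfl
      · exact ⟨hzbc, hzF, hzE⟩
      · exact absurd hba.1 hzE
      · exact absurd hcx.1 hzE
    have c1 := card_le_card s1
    have c2 := card_le_card s2
    omega
  · left
    refine ⟨⟨(a, b, x, c), hab_ne, hxa.symm, hac_ne, hbx_ne, hbc_ne, hcx_ne.symm⟩, ?_⟩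
    show sdist (switchSet E a b x c) F < sdist E F
    rw [switchSet_valid habE hxcE haxE hbcE]
    unfold sdist
    have s1 : ((E \ {s(a, b), s(x, c)}) ∪ {s(a, x), s(b, c)}) \ F
        ⊆ insert (s(a, x)) (((E \ F).erase (s(a, b))).erase (s(x, c))) := by
      intro z hz
      simp only [mem_sdiff, mem_union, mem_insert, mem_singleton, mem_erase, not_or] at hz ⊢
      obtain ⟨hz1, hzF⟩ := hz
      rcases hz1 with ⟨hzE, hzab, hzxc⟩ | rfl | rfl
      · exact Or.inr ⟨hzxc, hzab, hzE, hzF⟩
      · exact Or.inl rfl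
      · exact absurd hbcF hzF
    have s2 : F \ ((E \ {s(a, b), s(x, c)}) ∪ {s(a, x), s(b, c)}) ⊆ (F \ E).erase (s(b, c)) := by
      intro z hz
      simp only [mem_sdiff, mem_union, mem_insert, mem_singleton, mem_erase, not_or, not_and,
        not_not] at hz ⊢
      obtain ⟨hzF, hz1, hz2, hz3⟩ := hz
      refine ⟨hz3, hzF, ?_⟩
      intro hzE
      have h8 := hz1 hzE
      by_cases hzab : z = s(a, b)
      · exact habF (hzab ▸ hzF)
      · exact hxcF (h8 hzab ▸ hzF)
    have c1 := card_le_card s1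
    have c2 := card_le_card s2
    omega

end Vale.Agent.Lib.P335
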